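import Mathlib.Algebra.Group.End
import Mathlib.Combinatorics.SimpleGraph.Metric
import Mathlib.Data.ZMod.Defs

namespace Vale.Agent.P186

/-- Simple connectivity of the combinatorial map with darts `D`, face permutation `φ` and edge
involution `ε`: every group-valued edge labelling that integrates along each face integrates
globally. -/
def SC {D : Type} (φ ε : Equiv.Perm D) : Prop :=
  ∀ (H : Type) [Group H] (lam h : D → H), (∀ d, lam (ε d) = (lam d)⁻¹) →
    (∀ d, h (φ d) = h d * lam d) →
    ∃ f : D → H, (∀ d, f (φ d) = f d * lam d) ∧ ∀ d, f (ε d) = f d * lam d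

/-- Linear mod 2 isoperimetric inequality: each closed walk is the mod 2 boundary of at most
`C * length` triangles whose vertices are pairwise adjacent or equal. -/
def Fill {V : Type} (X : SimpleGraph V) (C : ℕ) : Prop :=
  ∀ (x : V) (p : X.Walk x x), ∃ T : Multiset (V × V × V),
    T.card ≤ C * p.length ∧
    (∀ t ∈ T, X.dist t.1 t.2.1 ≤ 1 ∧ X.dist t.2.1 t.2.2 ≤ 1 ∧ X.dist t.1 t.2.2 ≤ 1) ∧
    ∀ ω : Sym2 V → ZMod 2, (p.edges.map ω).sum =
      (T.map fun t => ω s(t.1, t.2.1) + ω s(t.2.1, t.2.2) + ω s(t.1, t.2.2)).sum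

end Vale.Agent.P186
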