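import Mathlib
import Vale.Agent.P186.SCDef

namespace Vale.Agent.P186
open Equiv Finset

namespace EulerAux

variable {D : Type} [Fintype D] [DecidableEq D]

/-- functions invariant under a permutation -/
def Inv (π : Perm D) : Submodule ℚ (D → ℚ) where
  carrier := {f | ∀ d, f (π d) = f d}
  add_mem' := fun {a b} ha hb d => by simp [ha d, hb d]
  zero_mem' := fun d => rfl
  smul_mem' := fun c a ha d => by simp [ha d]

theorem mem_Inv {π : Perm D} {f : D → ℚ} : f ∈ Inv π ↔ ∀ d, f (π d) = f d := Iff.rfl

theorem Inv_sameCycle {π : Perm D} {f : D → ℚ} (hf : f ∈ Inv π) {x y : D}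
    (h : π.SameCycle x y) : f x = f y := by
  obtain ⟨i, -, rfl⟩ := h.exists_pow_eq'
  induction i with
  | zero => rfl
  | succ i ih => rw [pow_succ', Perm.mul_apply, hf, ← ih]; exact ⟨i, by simp⟩

theorem finrank_Inv_le (π : Perm D) :
    Module.finrank ℚ (Inv π) ≤ Nat.card (Quotient (Perm.SameCycle.setoid π)) := by
  classical
  let L : Inv π →ₗ[ℚ] (Quotient (Perm.SameCycle.setoid π) → ℚ) :=
    { toFun := fun f q => f.1 q.out
      map_add' := fun _ _ => rfl
      map_smul' := fun _ _ => rfl }
  have hL : Function.Injective L := by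
    intro f g hfg
    ext d
    have h1 : π.SameCycle (Quotient.mk (Perm.SameCycle.setoid π) d).out d :=
      Quotient.mk_out (s := Perm.SameCycle.setoid π) d
    rw [← Inv_sameCycle f.2 h1, ← Inv_sameCycle g.2 h1]
    exact congrFun hfg _
  have := LinearMap.finrank_le_finrank_of_injective hL
  rwa [Module.finrank_fintype_fun_eq_card, ← Nat.card_eq_fintype_card] at this

theorem weight (π : Perm D) (w : D → ℕ) (c : ℕ)
    (h : ∀ d, ∃ s : Finset D, (∀ x ∈ s, π.SameCycle d x) ∧ c ≤ ∑ x ∈ s, w x) :
    c * Nat.card (Quotient (Perm.SameCycle.setoid π)) ≤ ∑ x, w x := by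
  classical
  rw [← Finset.sum_fiberwise univ (Quotient.mk (Perm.SameCycle.setoid π)) w,
    Nat.card_eq_fintype_card, mul_comm, ← smul_eq_mul, ← Finset.card_univ]
  apply Finset.card_nsmul_le_sum
  intro q _
  obtain ⟨s, hs, hc⟩ := h q.out
  refine hc.trans (Finset.sum_le_sum_of_subset fun x hx => ?_)
  simp only [mem_filter, mem_univ, true_and]
  rw [← q.out_eq]
  exact (Quotient.sound (s := Perm.SameCycle.setoid π) (hs x hx)).symm

theorem sameCycle_apply (π : Perm D) (d : D) : π.SameCycle d (π d) := ⟨1, by simp⟩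

end EulerAux

open EulerAux

/-- Euler inequality for a simply connected combinatorial map, in the form
`n3 + 12 ≤ 3 * n1 + 6 * F`. -/
theorem euler_count {D : Type} [Fintype D] [DecidableEq D] [Nonempty D] (φ ε : Perm D)
    (hε : ∀ d, ε (ε d) = d) (hε' : ∀ d, ε d ≠ d) (h : SC φ ε) :
    (univ.filter fun d => φ (ε (φ (ε d))) ≠ d).card + 12 ≤
      3 * (univ.filter fun d => φ (ε d) = d).card +
        6 * Nat.card (Quotient (Perm.SameCycle.setoid φ)) := by
  classical
  set σ : Perm D := φ * ε with hσ
  have hσa : ∀ d, σ d = φ (ε d) := fun _ => rfl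
  have hE : 2 * Nat.card (Quotient (Perm.SameCycle.setoid ε)) ≤ Fintype.card D := by
    have := weight ε (fun _ => 1) 2 fun d => ⟨{d, ε d}, by
      intro x hx
      rcases mem_insert.1 hx with rfl | hx
      · rfl
      · rw [mem_singleton.1 hx]; exact sameCycle_apply ε d, by
      rw [sum_pair (hε' d).symm]⟩
    simpa using this
  let w : D → ℕ := fun d => if σ d = d then 6 else if σ (σ d) = d then 3 else 2
  have hV : 6 * Nat.card (Quotient (Perm.SameCycle.setoid σ)) ≤ ∑ x, w x := by
    apply weight
    intro d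
    by_cases h1 : σ d = d
    · exact ⟨{d}, by simp [Perm.SameCycle.refl], by simp [w, h1]⟩
    · have h1' : σ (σ d) ≠ σ d := fun e => h1 (σ.injective e)
      by_cases h2 : σ (σ d) = d
      · refine ⟨{d, σ d}, ?_, ?_⟩
        · intro x hx
          rcases mem_insert.1 hx with rfl | hx
          · rfl
          · rw [mem_singleton.1 hx]; exact sameCycle_apply σ d
        · rw [sum_pair (Ne.symm h1)]
          simp only [w, if_neg h1, if_neg h1', h2, if_true]
          rfl
      · have hw : ∀ x, 2 ≤ w x := by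
          intro x; simp only [w]; split_ifs <;> omega
        refine ⟨{d, σ d, σ (σ d)}, ?_, ?_⟩
        · intro x hx
          simp only [mem_insert, mem_singleton] at hx
          rcases hx with rfl | rfl | rfl
          · rfl
          · exact sameCycle_apply σ d
          · exact (sameCycle_apply σ d).trans (sameCycle_apply σ _)
        · rw [sum_insert (by simp [Ne.symm h1, Ne.symm h2]), sum_pair h1'.symm]
          have := hw d
          have := hw (σ d)
          have := hw (σ (σ d))
          omega
  have hw : ∑ x, w x + (univ.filter fun d => φ (ε (φ (ε d))) ≠ d).card =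
      3 * Fintype.card D + 3 * (univ.filter fun d => φ (ε d) = d).card := by
    rw [card_filter, card_filter, ← card_univ, card_eq_sum_ones, mul_sum, mul_sum,
      ← sum_add_distrib, ← sum_add_distrib]
    refine sum_congr rfl fun d _ => ?_
    simp only [w, hσa]
    by_cases h1 : φ (ε d) = d
    · simp [h1]
    · by_cases h2 : φ (ε (φ (ε d))) = d <;> simp [h1, h2]
  let Θ : (D → ℚ) →ₗ[ℚ] (D → ℚ) :=
    { toFun := fun g d => (g (φ d) - g d) + (g (φ (ε d)) - g (ε d))
      map_add' := fun a b => by ext d; simp only [Pi.add_apply]; ring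
      map_smul' := fun c a => by ext d; simp only [Pi.smul_apply, smul_eq_mul, RingHom.id_apply]; ring }
  have hΘ : ∀ g d, Θ g d = (g (φ d) - g d) + (g (φ (ε d)) - g (ε d)) := fun _ _ => rfl
  have hrange : LinearMap.range Θ < Inv ε := by
    refine lt_of_le_of_ne ?_ fun he => ?_
    · rintro _ ⟨g, rfl⟩ d
      rw [hΘ, hΘ, hε]; ring
    · have h1 : (fun _ => (1 : ℚ)) ∈ LinearMap.range Θ := by rw [he]; exact fun _ => rfl
      obtain ⟨g, hg⟩ := h1
      have h2 : ∑ d, Θ g d = 0 := by
        simp only [hΘ, sum_add_distrib, sum_sub_distrib]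
        have h3 : ∑ x, g (φ (ε x)) = ∑ x, g x := Equiv.sum_comp σ g
        rw [Equiv.sum_comp φ g, Equiv.sum_comp ε g, h3]
        ring
      rw [hg] at h2
      simp at h2
  have hker : LinearMap.ker Θ ≤ Inv σ ⊔ Inv φ := by
    intro g hg
    have hg' : ∀ d, (g (φ d) - g d) + (g (φ (ε d)) - g (ε d)) = 0 := fun d => congrFun hg d
    obtain ⟨f, hf1, hf2⟩ := h (Multiplicative ℚ) (fun d => Multiplicative.ofAdd (g (φ d) - g d))
      (fun d => Multiplicative.ofAdd (g d))
      (fun d => by
        rw [← ofAdd_neg]; congr 1; linarith [hg' d])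
      (fun d => by rw [← ofAdd_add]; congr 1; ring)
    have e1 : ∀ d, (f (φ d)).toAdd = (f d).toAdd + (g (φ d) - g d) := fun d => by
      rw [hf1]; rfl
    have e2 : ∀ d, (f (ε d)).toAdd = (f d).toAdd + (g (φ d) - g d) := fun d => by
      rw [hf2]; rfl
    refine Submodule.mem_sup.2 ⟨fun d => (f d).toAdd, fun d => ?_, fun d => g d - (f d).toAdd,
      fun d => ?_, ?_⟩
    · change (f (φ (ε d))).toAdd = (f d).toAdd
      rw [e1, ← e2, hε]
    · change g (φ d) - (f (φ d)).toAdd = g d - (f d).toAdd
      rw [e1]; ring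
    · ext d; simp
  have hinf : 0 < Module.finrank ℚ (Inv σ ⊓ Inv φ : Submodule ℚ (D → ℚ)) := by
    rw [Module.finrank_pos_iff_exists_ne_zero]
    refine ⟨⟨fun _ => 1, fun _ => rfl, fun _ => rfl⟩, fun he => ?_⟩
    have := congrFun (congrArg Subtype.val he) (Classical.arbitrary D)
    simp at this
  have r1 := LinearMap.finrank_range_add_finrank_ker Θ
  have r2 := Submodule.finrank_lt_finrank_of_lt hrange
  have r3 := Submodule.finrank_mono hker
  have r4 := Submodule.finrank_sup_add_finrank_inf_eq (Inv σ) (Inv φ)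
  have r5 := finrank_Inv_le ε
  have r6 := finrank_Inv_le σ
  have r7 := finrank_Inv_le φ
  rw [Module.finrank_fintype_fun_eq_card] at r1
  omega

end Vale.Agent.P186
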