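import Mathlib
import Vale.Agent.P186.Defs
import Vale.Agent.P186.SCDef

namespace Vale.Agent.P186

/-- A linear mod 2 isoperimetric inequality implies thin geodesic triangles. -/
theorem thin_of_fill {V : Type} (X : SimpleGraph V) (hc : X.Connected) (C : ℕ) (h : Fill X C) :
    ∃ δ, ThinTriangles X δ := by
  sorry

end Vale.Agent.P186
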