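import Mathlib.Data.Finset.Basic
import Mathlib.Data.List.Chain

namespace Vale.Agent.P186

/-- A folded labelled graph: `P` = oriented labels with the involution `bar`,
`L a` = labels of the oriented edges leaving the vertex `a`, `nx a s` = end of that edge. -/
structure TG (P V : Type) where
  bar : P → P
  L : V → P → Prop
  nx : V → P → V
  bar_bar : ∀ s, bar (bar s) = s
  bar_ne : ∀ s, bar s ≠ s
  L_nx : ∀ a s, L a s → L (nx a s) (bar s)
  nx_nx : ∀ a s, L a s → nx (nx a s) (bar s) = a

namespace TG
variable {P V : Type} (T : TG P V)

/-- the word `w` can be read starting from the vertex `a` -/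
def IsWalk : V → List P → Prop
  | _, [] => True
  | a, s :: w => T.L a s ∧ IsWalk (T.nx a s) w

/-- end vertex of the walk from `a` with label `w` -/
def endpt (a : V) (w : List P) : V := w.foldl T.nx a

/-- freely reduced word -/
def Red (w : List P) : Prop := w.IsChain (fun s t => t ≠ T.bar s)

/-- no nonempty reduced closed walk of length `< g` -/
def Girth (g : ℕ) : Prop :=
  ∀ a w, T.IsWalk a w → T.Red w → w ≠ [] → w.length < g → T.endpt a w ≠ a

/-- no reduced word of length `p+1` is readable from two different vertices -/
def PieceLE (p : ℕ) : Prop :=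
  ∀ a b w, T.IsWalk a w → T.IsWalk b w → T.Red w → w.length = p + 1 → a = b

end TG
end Vale.Agent.P186
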