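import Vale.Agent.P186.Defs
import Vale.Agent.P186.TG

namespace Vale.Agent.P186

/-- Graphical small cancellation: the group `⟨P, V | x (bar s) = (x s)⁻¹, γ (nx a s) = γ a * x s⟩`
is hyperbolic and the `γ a` are pairwise distinct. -/
theorem smallCanc {P V : Type} [Finite P] [Finite V] (T : TG P V) {g p : ℕ}
    (hg : T.Girth g) (hp : T.PieceLE p) (hgp : 6 * p < g) :
    ∃ (G : Type) (_ : Group G) (x : P → G) (γ : V → G),
      (∀ s, x (T.bar s) = (x s)⁻¹) ∧ (∀ a s, T.L a s → γ (T.nx a s) = γ a * x s) ∧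
      Function.Injective γ ∧ IsWordHyperbolic G := by
  sorry

end Vale.Agent.P186
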