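import Mathlib
import Vale.Agent.P186.TG

namespace Vale.Agent.P186

namespace Switch

variable {P V : Type}

theorem endpt_nil (T : TG P V) (a : V) : T.endpt a [] = a := rfl

theorem endpt_cons (T : TG P V) (a : V) (s : P) (w : List P) :
    T.endpt a (s :: w) = T.endpt (T.nx a s) w := rfl

theorem endpt_append (T : TG P V) (a : V) (w w' : List P) :
    T.endpt a (w ++ w') = T.endpt (T.endpt a w) w' := by
  simp [TG.endpt, List.foldl_append]

theorem isWalk_append (T : TG P V) (a : V) (w w' : List P) :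
    T.IsWalk a (w ++ w') ↔ T.IsWalk a w ∧ T.IsWalk (T.endpt a w) w' := by
  induction w generalizing a with
  | nil => simp [TG.IsWalk, endpt_nil]
  | cons s w ih => simp [TG.IsWalk, endpt_cons, ih, and_assoc]

/-- `v` can be reached from `u` by a walk of length at most `n`. -/
def Reach (T : TG P V) (n : ℕ) (u v : V) : Prop :=
  ∃ w, T.IsWalk u w ∧ w.length ≤ n ∧ T.endpt u w = v

theorem Reach.trans {T : TG P V} {m n : ℕ} {u v x : V} (h1 : Reach T m u v) (h2 : Reach T n v x) :
    Reach T (m + n) u x := by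
  obtain ⟨w, a1, a2, rfl⟩ := h1
  obtain ⟨w', b1, b2, rfl⟩ := h2
  exact ⟨w ++ w', (isWalk_append T u w w').2 ⟨a1, b1⟩, by simp; omega, endpt_append _ _ _ _⟩

theorem Reach.mono {T : TG P V} {m n : ℕ} {u v : V} (h1 : Reach T m u v) (h : m ≤ n) :
    Reach T n u v := by
  obtain ⟨w, a1, a2, a3⟩ := h1
  exact ⟨w, a1, a2.trans h, a3⟩

theorem reach_step (T : TG P V) {u : V} {s : P} (h : T.L u s) : Reach T 1 u (T.nx u s) :=
  ⟨[s], ⟨h, trivial⟩, le_rfl, rfl⟩

theorem reach_back (T : TG P V) {u : V} {s : P} (h : T.L u s) : Reach T 1 (T.nx u s) u := by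
  have := reach_step T (T.L_nx u s h)
  rwa [T.nx_nx u s h] at this

theorem Reach.symm {T : TG P V} {n : ℕ} {u v : V} (h : Reach T n u v) : Reach T n v u := by
  obtain ⟨w, a1, a2, rfl⟩ := h
  induction w generalizing u n with
  | nil => exact ⟨[], trivial, by simp, rfl⟩
  | cons s w ih =>
    have h1 := ih a1.2 (le_refl w.length)
    exact (h1.trans (reach_back T a1.1)).mono (by simpa using a2)

theorem ncard_ball_le [Finite P] [Finite V] (T : TG P V) (Δ : ℕ)
    (hdeg : ∀ a, Nat.card {s // T.L a s} ≤ Δ) (j : ℕ) (a : V) :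
    {v | Reach T j a v}.ncard ≤ (Δ + 1) ^ j := by
  classical
  induction j generalizing a with
  | zero =>
    have : {v | Reach T 0 a v} ⊆ {a} := by
      rintro v ⟨w, -, h2, rfl⟩
      have : w = [] := List.length_eq_zero_iff.1 (by omega)
      subst this
      rfl
    simpa using Set.ncard_le_ncard this
  | succ j ih =>
    have := Fintype.ofFinite P
    have := Fintype.ofFinite V
    let S : Finset P := Finset.univ.filter fun s => T.L a s
    have hS : S.card ≤ Δ := by
      have := hdeg a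
      rwa [Nat.card_eq_fintype_card, Fintype.card_subtype] at this
    let B : P → Finset V := fun s => {v | Reach T j (T.nx a s) v}.toFinset
    have hsub : {v | Reach T (j + 1) a v} ⊆ ((insert a (S.biUnion B) : Finset V) : Set V) := by
      rintro v ⟨w, h1, h2, rfl⟩
      cases w with
      | nil => simp [endpt_nil]
      | cons s w =>
        simp only [Finset.coe_insert, Finset.coe_biUnion, Set.mem_insert_iff, Set.mem_iUnion]
        refine Or.inr ⟨s, by simpa [S] using h1.1, ?_⟩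
        simp only [B, Set.coe_toFinset, Set.mem_ofPred_eq]
        exact ⟨w, h1.2, by simpa using h2, rfl⟩
    have hB : ∀ s, (B s).card ≤ (Δ + 1) ^ j := by
      intro s
      have := ih (T.nx a s)
      rwa [Set.ncard_eq_toFinset_card'] at this
    have hpos : 1 ≤ (Δ + 1) ^ j := Nat.one_le_pow _ _ (Nat.succ_pos _)
    calc {v | Reach T (j + 1) a v}.ncard ≤ (insert a (S.biUnion B)).card := by
          simpa only [Set.ncard_coe_finset] using Set.ncard_le_ncard hsub
      _ ≤ (S.biUnion B).card + 1 := Finset.card_insert_le _ _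
      _ ≤ S.card * (Δ + 1) ^ j + 1 := by
          gcongr
          exact Finset.card_biUnion_le_card_mul _ _ _ fun s _ => hB s
      _ ≤ Δ * (Δ + 1) ^ j + (Δ + 1) ^ j := by gcongr
      _ = (Δ + 1) ^ (j + 1) := by ring

/-- the walk read in `T'` avoids the special darts -/
def Free (T' : TG P V) (Sp : V → P → Prop) : V → List P → Prop
  | _, [] => True
  | a, s :: w => ¬ Sp a s ∧ Free T' Sp (T'.nx a s) w

theorem free_append (T' : TG P V) (Sp : V → P → Prop) (a : V) (w w' : List P) :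
    Free T' Sp a (w ++ w') ↔ Free T' Sp a w ∧ Free T' Sp (T'.endpt a w) w' := by
  induction w generalizing a with
  | nil => simp [Free, endpt_nil]
  | cons s w ih => simp [Free, endpt_cons, ih, and_assoc]

theorem free_or (T' : TG P V) (Sp : V → P → Prop) (a : V) (w : List P) :
    Free T' Sp a w ∨ ∃ w0 t w1, w = w0 ++ t :: w1 ∧ Free T' Sp a w0 ∧ Sp (T'.endpt a w0) t := by
  induction w generalizing a with
  | nil => exact Or.inl trivial
  | cons s w ih =>
    by_cases h : Sp a s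
    · exact Or.inr ⟨[], s, w, rfl, trivial, h⟩
    · rcases ih (T'.nx a s) with h1 | ⟨w0, t, w1, rfl, h2, h3⟩
      · exact Or.inl ⟨h, h1⟩
      · exact Or.inr ⟨s :: w0, t, w1, rfl, ⟨h, h2⟩, h3⟩

theorem transfer {T T' : TG P V} {Sp : V → P → Prop} (hL : T'.L = T.L)
    (hnx : ∀ v t, ¬ Sp v t → T'.nx v t = T.nx v t) {a : V} {w : List P}
    (h1 : T'.IsWalk a w) (h2 : Free T' Sp a w) : T.IsWalk a w ∧ T.endpt a w = T'.endpt a w := by
  induction w generalizing a with
  | nil => exact ⟨trivial, rfl⟩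
  | cons s w ih =>
    have h3 := ih h1.2 h2.2
    rw [hnx a s h2.1] at h3
    refine ⟨⟨hL ▸ h1.1, h3.1⟩, ?_⟩
    rw [endpt_cons, endpt_cons, hnx a s h2.1]
    exact h3.2

theorem core {T T' : TG P V} {Sp : V → P → Prop} (hbar : T'.bar = T.bar) (hL : T'.L = T.L)
    (hnx : ∀ v t, ¬ Sp v t → T'.nx v t = T.nx v t) (g : ℕ) (hg : T.Girth g)
    (hSp : ∀ x t, Sp x t → ¬ Reach T g (T'.nx x t) x ∧ ∃ x', T.L x' t ∧ T.nx x' t = T'.nx x t ∧
      ∀ y u, Sp y u → (y = x' ∧ u = t) ∨ (y = T'.nx x t ∧ u = T.bar t) ∨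
        ¬ Reach T g (T'.nx x t) y)
    {v : V} {w : List P} (h1 : T'.IsWalk v w) (h2 : T'.Red w) (h3 : w.length ≤ g)
    (h4 : T'.endpt v w = v) : Free T' Sp v w := by
  rcases free_or T' Sp v w with h | ⟨w0, t, rest, rfl, hf0, hsp⟩
  · exact h
  exfalso
  obtain ⟨hw0, hwr⟩ := (isWalk_append T' v w0 _).1 h1
  obtain ⟨hfar, x', hx1, hx2, hx3⟩ := hSp _ _ hsp
  have hred : T.Red (t :: rest) := by
    have := (List.isChain_append.1 h2).2.1
    unfold TG.Red
    rwa [hbar] at this
  rw [endpt_append, endpt_cons] at h4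
  have hlen : w0.length + (rest.length + 1) ≤ g := by simpa using h3
  obtain ⟨a1, a2⟩ := transfer hL hnx hw0 hf0
  rcases free_or T' Sp (T'.nx (T'.endpt v w0) t) rest with h | ⟨w1, u, w2, rfl, hf1, hsp'⟩
  · obtain ⟨b1, b2⟩ := transfer hL hnx hwr.2 h
    have r1 : Reach T rest.length (T'.nx (T'.endpt v w0) t) v := ⟨rest, b1, le_rfl, b2.trans h4⟩
    have r2 : Reach T w0.length v (T'.endpt v w0) := ⟨w0, a1, le_rfl, a2⟩
    exact hfar ((r1.trans r2).mono (by omega))
  · obtain ⟨hw1, -⟩ := (isWalk_append T' _ w1 _).1 hwr.2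
    obtain ⟨b1, b2⟩ := transfer hL hnx hw1 hf1
    have hlen' : w1.length + 2 ≤ g := by simp at hlen; omega
    have hred1 : T.Red (t :: w1) := by
      have : T.Red ((t :: w1) ++ u :: w2) := hred
      exact (List.isChain_append.1 this).1
    rcases hx3 _ _ hsp' with ⟨e1, -⟩ | ⟨e1, e2⟩ | e
    · refine hg x' (t :: w1) ⟨hx1, hx2 ▸ b1⟩ hred1 (by simp) (by simp; omega) ?_
      rw [endpt_cons, hx2, b2, e1]
    · cases w1 with
      | nil =>
        have : T.Red (t :: u :: w2) := hred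
        exact (List.isChain_cons_cons.1 this).1 e2
      | cons q w1 =>
        refine hg _ (q :: w1) b1 (List.isChain_cons_cons.1 hred1).2 (by simp) (by omega) ?_
        rw [b2, e1]
    · exact e ⟨w1, b1, by omega, b2⟩

open Classical in
/-- The switched graph. -/
noncomputable def sw (T : TG P V) (a a' : V) (s : P) (ha : T.L a s) (ha' : T.L a' s)
    (hne : a ≠ a') : TG P V where
  bar := T.bar
  L := T.L
  nx v t := if v = a ∧ t = s then T.nx a' s else if v = a' ∧ t = s then T.nx a s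
    else if v = T.nx a s ∧ t = T.bar s then a' else if v = T.nx a' s ∧ t = T.bar s then a
    else T.nx v t
  bar_bar := T.bar_bar
  bar_ne := T.bar_ne
  L_nx := by
    intro v t h
    split_ifs with h1 h2 h3 h4
    · rw [h1.2]; exact T.L_nx _ _ ha'
    · rw [h2.2]; exact T.L_nx _ _ ha
    · rw [h3.2, T.bar_bar]; exact ha'
    · rw [h4.2, T.bar_bar]; exact ha
    · exact T.L_nx _ _ h
  nx_nx := by
    intro v t h
    have hb : T.nx a s ≠ T.nx a' s := by
      intro e
      apply hne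
      rw [← T.nx_nx a s ha, e, T.nx_nx a' s ha']
    have hs := T.bar_ne s
    by_cases h1 : v = a ∧ t = s
    · obtain ⟨rfl, rfl⟩ := h1
      simp [hs, hb.symm]
    by_cases h2 : v = a' ∧ t = s
    · obtain ⟨rfl, rfl⟩ := h2
      simp [hs, hne.symm]
    by_cases h3 : v = T.nx a s ∧ t = T.bar s
    · obtain ⟨rfl, rfl⟩ := h3
      simp [hs, hne.symm, T.bar_bar]
    by_cases h4 : v = T.nx a' s ∧ t = T.bar s
    · obtain ⟨rfl, rfl⟩ := h4
      simp [hs, hb.symm, T.bar_bar]
    rw [if_neg h1, if_neg h2, if_neg h3, if_neg h4]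
    have hv := T.nx_nx v t h
    have hbt : ∀ u, T.bar t = u → t = T.bar u := fun u e => by rw [← e, T.bar_bar]
    rw [if_neg, if_neg, if_neg, if_neg, hv]
    · rintro ⟨e1, e2⟩
      have e3 : t = s := by rw [hbt _ e2, T.bar_bar]
      apply h2
      refine ⟨?_, e3⟩
      rw [← hv, e1, e2, T.nx_nx a' s ha']
    · rintro ⟨e1, e2⟩
      have e3 : t = s := by rw [hbt _ e2, T.bar_bar]
      apply h1
      refine ⟨?_, e3⟩
      rw [← hv, e1, e2, T.nx_nx a s ha]
    · rintro ⟨e1, e2⟩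
      apply h4
      refine ⟨?_, hbt _ e2⟩
      rw [← hv, e1, e2]
    · rintro ⟨e1, e2⟩
      apply h3
      refine ⟨?_, hbt _ e2⟩
      rw [← hv, e1, e2]

/-- The four darts changed by the switch. -/
def SpD (T : TG P V) (a a' : V) (s : P) (v : V) (t : P) : Prop :=
  (v = a ∧ t = s) ∨ (v = a' ∧ t = s) ∨ (v = T.nx a s ∧ t = T.bar s) ∨
    (v = T.nx a' s ∧ t = T.bar s)

section
variable (T : TG P V) (a a' : V) (s : P) (ha : T.L a s) (ha' : T.L a' s) (hne : a ≠ a')

theorem sw_nx_of_not (v : V) (t : P) (h : ¬ SpD T a a' s v t) :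
    (sw T a a' s ha ha' hne).nx v t = T.nx v t := by
  simp only [SpD, not_or] at h
  simp only [sw]
  rw [if_neg h.1, if_neg h.2.1, if_neg h.2.2.1, if_neg h.2.2.2]

theorem sw_nx1 : (sw T a a' s ha ha' hne).nx a s = T.nx a' s := by simp [sw]

theorem sw_nx2 : (sw T a a' s ha ha' hne).nx a' s = T.nx a s := by simp [sw, hne.symm]

theorem sw_nx3 : (sw T a a' s ha ha' hne).nx (T.nx a s) (T.bar s) = a' := by
  simp [sw, T.bar_ne s]

theorem sw_nx4 : (sw T a a' s ha ha' hne).nx (T.nx a' s) (T.bar s) = a := by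
  have hb : T.nx a' s ≠ T.nx a s := by
    intro e
    apply hne
    rw [← T.nx_nx a s ha, ← e, T.nx_nx a' s ha']
  simp [sw, T.bar_ne s, hb]

theorem sw_free (g : ℕ) (hg : T.Girth g) (hfar : ¬ Reach T (g + 2) a a') {v : V} {w : List P}
    (h1 : (sw T a a' s ha ha' hne).IsWalk v w) (h2 : (sw T a a' s ha ha' hne).Red w)
    (h3 : w.length ≤ g) (h4 : (sw T a a' s ha ha' hne).endpt v w = v) :
    Free (sw T a a' s ha ha' hne) (SpD T a a' s) v w := by
  have f1 : ¬ Reach T g a a' := fun h => hfar (h.mono (by omega))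
  have f2 : ¬ Reach T g a (T.nx a' s) := fun h =>
    hfar ((h.trans (reach_back T ha')).mono (by omega))
  have f3 : ¬ Reach T g (T.nx a s) a' := fun h =>
    hfar (((reach_step T ha).trans h).mono (by omega))
  have f4 : ¬ Reach T g (T.nx a s) (T.nx a' s) := fun h =>
    hfar ((((reach_step T ha).trans h).trans (reach_back T ha')).mono (by omega))
  refine core (T := T) (T' := sw T a a' s ha ha' hne) rfl rfl (sw_nx_of_not T a a' s ha ha' hne) g hg ?_ h1 h2 h3 h4
  rintro x t (⟨rfl, rfl⟩ | ⟨rfl, rfl⟩ | ⟨rfl, rfl⟩ | ⟨rfl, rfl⟩)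
  · rw [sw_nx1]
    refine ⟨fun h => f2 h.symm, a', ha', rfl, ?_⟩
    rintro y u (⟨rfl, rfl⟩ | ⟨rfl, rfl⟩ | ⟨rfl, rfl⟩ | ⟨rfl, rfl⟩)
    · exact Or.inr (Or.inr fun h => f2 h.symm)
    · exact Or.inl ⟨rfl, rfl⟩
    · exact Or.inr (Or.inr fun h => f4 h.symm)
    · exact Or.inr (Or.inl ⟨rfl, rfl⟩)
  · rw [sw_nx2]
    refine ⟨f3, a, ha, rfl, ?_⟩
    rintro y u (⟨rfl, rfl⟩ | ⟨rfl, rfl⟩ | ⟨rfl, rfl⟩ | ⟨rfl, rfl⟩)
    · exact Or.inl ⟨rfl, rfl⟩
    · exact Or.inr (Or.inr f3)
    · exact Or.inr (Or.inl ⟨rfl, rfl⟩)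
    · exact Or.inr (Or.inr f4)
  · rw [sw_nx3]
    refine ⟨fun h => f3 h.symm, T.nx a' s, T.L_nx _ _ ha', T.nx_nx _ _ ha', ?_⟩
    rintro y u (⟨rfl, rfl⟩ | ⟨rfl, rfl⟩ | ⟨rfl, rfl⟩ | ⟨rfl, rfl⟩)
    · exact Or.inr (Or.inr fun h => f1 h.symm)
    · exact Or.inr (Or.inl ⟨rfl, (T.bar_bar _).symm⟩)
    · exact Or.inr (Or.inr fun h => f3 h.symm)
    · exact Or.inl ⟨rfl, rfl⟩
  · rw [sw_nx4]
    refine ⟨f2, T.nx a s, T.L_nx _ _ ha, T.nx_nx _ _ ha, ?_⟩
    rintro y u (⟨rfl, rfl⟩ | ⟨rfl, rfl⟩ | ⟨rfl, rfl⟩ | ⟨rfl, rfl⟩)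
    · exact Or.inr (Or.inl ⟨rfl, (T.bar_bar _).symm⟩)
    · exact Or.inr (Or.inr f1)
    · exact Or.inl ⟨rfl, rfl⟩
    · exact Or.inr (Or.inr f2)

end

/-- closed reduced walks of length exactly `g` -/
def Bad (T : TG P V) (g : ℕ) : Set (V × List P) :=
  {p | T.IsWalk p.1 p.2 ∧ T.Red p.2 ∧ p.2 ≠ [] ∧ p.2.length = g ∧ T.endpt p.1 p.2 = p.1}

theorem bad_finite [Finite P] [Finite V] (T : TG P V) (g : ℕ) : (Bad T g).Finite :=
  ((Set.toFinite (Set.univ : Set V)).prod (List.finite_length_eq P g)).subset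
    fun _ hp => ⟨trivial, hp.2.2.2.1⟩

theorem exists_init {I : Type} [Finite P] [Finite V] (bar : P → P)
    (hbar : ∀ s, bar (bar s) = s) (hne : ∀ s, bar s ≠ s) (L : V → P → Prop) (col : V → I)
    (τ : I → P → I) (hτ : ∀ i s, τ (τ i s) (bar s) = i)
    (hbal : ∀ i s, Nat.card {a // col a = i ∧ L a s} =
      Nat.card {a // col a = τ i s ∧ L a (bar s)}) :
    ∃ T : TG P V, T.bar = bar ∧ T.L = L ∧ (∀ a s, L a s → col (T.nx a s) = τ (col a) s) := by
  classical
  have hτ' : ∀ i s, τ (τ i (bar s)) s = i := fun i s => by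
    have := hτ i (bar s)
    rwa [hbar] at this
  have key : ∀ s, ∃ F G : V → V,
      (∀ a, L a s → L (F a) (bar s) ∧ col (F a) = τ (col a) s ∧ G (F a) = a) ∧
      (∀ b, L b (bar s) → L (G b) s ∧ col (G b) = τ (col b) (bar s) ∧ F (G b) = b) := by
    intro s
    have he : ∀ c : I, Nonempty ({a : {a // L a s} // col a.1 = c} ≃
        {b : {b // L b (bar s)} // τ (col b.1) (bar s) = c}) := by
      intro c
      refine Finite.card_eq.1 ?_
      have e1 : {a : {a // L a s} // col a.1 = c} ≃ {a // col a = c ∧ L a s} :=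
        (Equiv.subtypeSubtypeEquivSubtypeInter (fun a => L a s) fun a => col a = c).trans
          (Equiv.subtypeEquivRight fun a => and_comm)
      have e2 : {b : {b // L b (bar s)} // τ (col b.1) (bar s) = c} ≃
          {a // col a = τ c s ∧ L a (bar s)} :=
        (Equiv.subtypeSubtypeEquivSubtypeInter (fun a => L a (bar s))
          fun a => τ (col a) (bar s) = c).trans
          (Equiv.subtypeEquivRight fun a => by
            constructor
            · rintro ⟨h1, rfl⟩
              exact ⟨(hτ' _ _).symm, h1⟩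
            · rintro ⟨h1, h2⟩
              exact ⟨h2, by rw [h1, hτ]⟩)
      rw [Nat.card_congr e1, Nat.card_congr e2, hbal]
    let Φ : {a // L a s} ≃ {b // L b (bar s)} :=
      Equiv.ofFiberEquiv (f := fun a => col a.1) (g := fun b => τ (col b.1) (bar s))
        fun c => (he c).some
    have hΦ : ∀ a, τ (col (Φ a).1) (bar s) = col a.1 := fun a =>
      Equiv.ofFiberEquiv_map (f := fun a : {a // L a s} => col a.1)
        (g := fun b : {b // L b (bar s)} => τ (col b.1) (bar s)) (fun c => (he c).some) a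
    refine ⟨fun a => if h : L a s then (Φ ⟨a, h⟩).1 else a,
      fun b => if h : L b (bar s) then (Φ.symm ⟨b, h⟩).1 else b, fun a h => ?_, fun b h => ?_⟩
    · simp only [dif_pos h, dif_pos (Φ ⟨a, h⟩).2, Subtype.coe_eta, Equiv.symm_apply_apply,
        and_true]
      refine ⟨(Φ ⟨a, h⟩).2, ?_⟩
      have := hΦ ⟨a, h⟩
      simp only at this
      rw [← this, hτ']
    · simp only [dif_pos h, dif_pos (Φ.symm ⟨b, h⟩).2, Subtype.coe_eta, Equiv.apply_symm_apply,
        and_true]
      refine ⟨(Φ.symm ⟨b, h⟩).2, ?_⟩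
      have := hΦ (Φ.symm ⟨b, h⟩)
      rw [Equiv.apply_symm_apply] at this
      exact this.symm
  choose F G hF hG using key
  obtain ⟨n, ⟨ord⟩⟩ := Finite.exists_equiv_fin P
  have hpos : ∀ s, ord (bar s) < ord (bar (bar s)) ↔ ¬ ord s < ord (bar s) := by
    intro s
    rw [hbar]
    have : ord (bar s) ≠ ord s := fun e => hne s (ord.injective e)
    constructor
    · exact fun h => not_lt.2 h.le
    · exact fun h => lt_of_le_of_ne (not_lt.1 h) this
  refine ⟨⟨bar, L, fun v t => if ord t < ord (bar t) then F t v else G (bar t) v, hbar, hne,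
    fun v t h => ?_, fun v t h => ?_⟩, rfl, rfl, fun v t h => ?_⟩
  · split_ifs with h1
    · exact (hF t v h).1
    · exact (hG (bar t) v (by rwa [hbar])).1
  · by_cases h1 : ord t < ord (bar t)
    · simp only [if_pos h1, if_neg (fun h2 => (hpos t).1 h2 h1)]
      rw [hbar]
      exact (hF t v h).2.2
    · simp only [if_neg h1, if_pos ((hpos t).2 h1)]
      exact (hG (bar t) v (by rwa [hbar])).2.2
  · simp only
    split_ifs with h1
    · exact (hF t v h).2.1
    · have := (hG (bar t) v (by rwa [hbar])).2.1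
      rwa [hbar] at this

end Switch

open Switch in
/-- Erdos-Sachs switching: a balanced typing `L` with large classes carries a folded graph of
girth `≥ g` whose edges move colours by the rule `τ`. Labels in `Z` may have small classes. -/
theorem exists_girth {P V I : Type} [Finite P] [Finite V] (bar : P → P)
    (hbar : ∀ s, bar (bar s) = s) (hne : ∀ s, bar s ≠ s) (L : V → P → Prop) (col : V → I)
    (τ : I → P → I) (hτ : ∀ i s, τ (τ i s) (bar s) = i) (Z : P → Prop)
    (hZ : ∀ s, Z s → Z (bar s)) (hZ1 : ∀ a s t, L a s → L a t → Z s → Z t → s = t) (g Δ : ℕ)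
    (hdeg : ∀ a, Nat.card {s // L a s} ≤ Δ)
    (hbal : ∀ i s, Nat.card {a // col a = i ∧ L a s} =
      Nat.card {a // col a = τ i s ∧ L a (bar s)})
    (hbig : ∀ a s, L a s → ¬ Z s → (Δ + 1) ^ (g + 2) < Nat.card {b // col b = col a ∧ L b s}) :
    ∃ T : TG P V, T.bar = bar ∧ T.L = L ∧ (∀ a s, L a s → col (T.nx a s) = τ (col a) s) ∧
      T.Girth g := by
  have main : ∀ k, k ≤ g → ∃ T : TG P V, T.bar = bar ∧ T.L = L ∧
      (∀ a s, L a s → col (T.nx a s) = τ (col a) s) ∧ T.Girth k := by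
    intro k
    induction k with
    | zero =>
      intro _
      obtain ⟨T, h1, h2, h3⟩ := exists_init bar hbar hne L col τ hτ hbal
      exact ⟨T, h1, h2, h3, fun a w _ _ _ h => absurd h (Nat.not_lt_zero _)⟩
    | succ k ih =>
      intro hk
      obtain ⟨T, ⟨h1, h2, h3, h4⟩, hmin⟩ := exists_minimalFor_of_wellFoundedLT
        (fun T : TG P V => T.bar = bar ∧ T.L = L ∧
          (∀ a s, L a s → col (T.nx a s) = τ (col a) s) ∧ T.Girth k)
        (fun T => (Bad T k).ncard) (ih (by omega))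
      subst h1 h2
      refine ⟨T, rfl, rfl, h3, fun v w b1 b2 b3 b4 b5 => ?_⟩
      rcases Nat.lt_succ_iff_lt_or_eq.1 b4 with b6 | b6
      · exact h4 v w b1 b2 b3 b6 b5
      have hdart : ∃ w1 s w2, w = w1 ++ s :: w2 ∧ ¬ Z s := by
        match w, b1, b2, b3, b5 with
        | [s], b1, _, _, b5 =>
          refine ⟨[], s, [], rfl, fun hz => ?_⟩
          have e : T.nx v s = v := b5
          have := T.L_nx v s b1.1
          rw [e] at this
          exact hne s (hZ1 v _ _ this b1.1 (hZ s hz) hz)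
        | s :: t :: w', b1, b2, _, _ =>
          by_cases hz : Z s
          · refine ⟨[s], t, w', rfl, fun hz' => ?_⟩
            exact (List.isChain_cons_cons.1 b2).1
              (hZ1 _ _ _ b1.2.1 (T.L_nx v s b1.1) hz' (hZ s hz))
          · exact ⟨[], s, t :: w', rfl, hz⟩
      obtain ⟨w1, s, w2, rfl, hz⟩ := hdart
      obtain ⟨c1, c2⟩ := (isWalk_append T v w1 _).1 b1
      set a := T.endpt v w1 with haa
      have ha : T.L a s := c2.1
      obtain ⟨a', hc, ha', hfar⟩ : ∃ a', col a' = col a ∧ T.L a' s ∧ ¬ Reach T (g + 2) a a' := by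
        by_contra hcon
        push Not at hcon
        have e1 : {b | col b = col a ∧ T.L b s} ⊆ {b | Reach T (g + 2) a b} :=
          fun b hb => hcon b hb.1 hb.2
        have e2 := (Set.ncard_le_ncard e1).trans (ncard_ball_le T Δ hdeg (g + 2) a)
        have e3 := hbig a s ha hz
        have e4 : Nat.card {b // col b = col a ∧ T.L b s}
            = {b | col b = col a ∧ T.L b s}.ncard := Nat.card_coe_set_eq _
        omega
      have hne' : a ≠ a' := by
        rintro rfl
        exact hfar ⟨[], trivial, by simp, rfl⟩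
      have hfar' : ¬ Reach T (k + 2) a a' := fun h => hfar (h.mono (by omega))
      have hfree := fun {v w} => @sw_free P V T a a' s ha ha' hne' k h4 hfar' v w
      have htr := fun {v w} => @transfer P V T (sw T a a' s ha ha' hne') (SpD T a a' s) rfl
        (sw_nx_of_not T a a' s ha ha' hne') v w
      have hsub : Bad (sw T a a' s ha ha' hne') k ⊂ Bad T k := by
        refine ⟨?_, fun hcon => ?_⟩
        · rintro ⟨x, y⟩ ⟨d1, d2, d3, d4, d5⟩
          obtain ⟨e1, e2⟩ := htr d1 (hfree d1 d2 d4.le d5)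
          exact ⟨e1, d2, d3, d4, e2.trans d5⟩
        · obtain ⟨d1, d2, -, d4, d5⟩ := hcon (show (v, w1 ++ s :: w2) ∈ Bad T k from
            ⟨b1, b2, b3, b6, b5⟩)
          obtain ⟨e1, e2⟩ := (free_append _ _ _ _ _).1 (hfree d1 d2 d4.le d5)
          obtain ⟨-, e3⟩ := htr ((isWalk_append _ _ _ _).1 d1).1 e1
          exact e2.1 (Or.inl ⟨e3.symm, rfl⟩)
      have hlt := Set.ncard_lt_ncard hsub (bad_finite T k)
      refine absurd (hmin (j := sw T a a' s ha ha' hne') ⟨rfl, rfl, ?_, ?_⟩ hlt.le) (not_le.2 hlt)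
      · intro x t hx
        by_cases hsp : SpD T a a' s x t
        · rcases hsp with ⟨rfl, rfl⟩ | ⟨rfl, rfl⟩ | ⟨rfl, rfl⟩ | ⟨rfl, rfl⟩
          · rw [sw_nx1, h3 _ _ ha', hc]
          · rw [sw_nx2, h3 _ _ ha, hc]
          · rw [sw_nx3, h3 _ _ ha, hτ, hc]
          · rw [sw_nx4, h3 _ _ ha', hτ, hc]
        · rw [sw_nx_of_not _ _ _ _ _ _ _ _ _ hsp]
          exact h3 x t hx
      · intro x y d1 d2 d3 d4 d5
        obtain ⟨e1, e2⟩ := htr d1 (hfree d1 d2 d4.le d5)
        exact h4 x y e1 d2 d3 d4 (e2.trans d5)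
  exact main g le_rfl

end Vale.Agent.P186
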