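import Mathlib
import Vale.Agent.P186.TG
import Vale.Agent.P186.SCDef

namespace Vale.Agent.P186
open Equiv

/-- simple connectivity relative to the outer face -/
def SCrel {D : Type} (φ ε : D → D) (p : D → Prop) (out : List D) : Prop :=
  ∀ (H : Type) [Group H] (lam h : D → H), (∀ d, p d → lam (ε d) = (lam d)⁻¹) →
    (∀ d, p d → d ∉ out → h (φ d) = h d * lam d) →
    ∃ f : D → H, ∀ d, p d → f (φ d) = f d * lam d ∧ f (ε d) = f d * lam d

/-- van Kampen map over the labelled graph `T` with outer boundary label `w` -/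
structure VK {A W : Type} (T : TG A W) (w : List A) where
  D : Type
  fin : Finite D
  φ : Perm D
  ε : Perm D
  lab : D → A
  ρ : D → W
  out : List D
  εε : ∀ d, ε (ε d) = d
  lab_ε : ∀ d, lab (ε d) = T.bar (lab d)
  nodup : out.Nodup
  out_lab : out.map lab = w
  out_φ : out.map φ = out.rotate 1
  inL : ∀ d, d ∉ out → T.L (ρ d) (lab d)
  inNx : ∀ d, d ∉ out → ρ (φ d) = T.nx (ρ d) (lab d)
  sc : SCrel φ ε (fun _ => True) out

namespace VK
variable {A W : Type} {T : TG A W} {w : List A}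

instance (M : VK T w) : Finite M.D := M.fin

theorem ε_ne (M : VK T w) (d : M.D) : M.ε d ≠ d := by
  intro h
  have := M.lab_ε d
  rw [h] at this
  exact T.bar_ne _ this.symm

theorem φ_mem (M : VK T w) (d : M.D) : M.φ d ∈ M.out ↔ d ∈ M.out := by
  rw [← List.mem_rotate (n := 1), ← M.out_φ, List.mem_map]
  constructor
  · rintro ⟨e, he, h⟩
    rwa [← M.φ.injective h]
  · intro h
    exact ⟨d, h, rfl⟩

theorem sc' (M : VK T w) : SC M.φ M.ε := by
  intro H _ lam h h1 h2
  obtain ⟨f, hf⟩ := M.sc H lam h (fun d _ => h1 d) (fun d _ _ => h2 d)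
  exact ⟨f, fun d => (hf d trivial).1, fun d => (hf d trivial).2⟩

/-- restriction of a map to an invariant set of darts -/
theorem restrict {D : Type} [Finite D] (p : D → Prop) (φ ε : Perm D) (lab : D → A) (ρ : D → W)
    (out : List D) (hφ : ∀ d, p (φ d) ↔ p d) (hε : ∀ d, p (ε d) ↔ p d) (hout : ∀ d ∈ out, p d)
    (εε : ∀ d, p d → ε (ε d) = d) (lab_ε : ∀ d, p d → lab (ε d) = T.bar (lab d))
    (nodup : out.Nodup) (out_lab : out.map lab = w) (out_φ : out.map φ = out.rotate 1)
    (inL : ∀ d, p d → d ∉ out → T.L (ρ d) (lab d))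
    (inNx : ∀ d, p d → d ∉ out → ρ (φ d) = T.nx (ρ d) (lab d))
    (sc : SCrel φ ε p out) (x : D) (hx : ¬ p x) :
    ∃ (M : VK T w) (ι : M.D → D), Nat.card M.D < Nat.card D ∧ Function.Injective ι ∧
      (∀ d, p d ↔ ∃ e, ι e = d) ∧ (∀ d, M.lab d = lab (ι d)) ∧ (∀ d, M.ρ d = ρ (ι d)) ∧
      M.out.map ι = out ∧ (∀ d, ι (M.φ d) = φ (ι d)) ∧ ∀ d, ι (M.ε d) = ε (ι d) := by
  classical
  let l : List {d // p d} := out.pmap (fun d hd => ⟨d, hd⟩) hout
  have hl : l.map Subtype.val = out := by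
    simp [l, List.map_pmap]
  have hmem : ∀ d : {d // p d}, d ∈ l ↔ d.1 ∈ out := by
    intro d
    rw [← hl, List.mem_map]
    constructor
    · intro h; exact ⟨d, h, rfl⟩
    · rintro ⟨e, he, h⟩; rwa [← Subtype.ext h]
  have hr : ∀ d, p d ↔ ∃ e : {d // p d}, e.1 = d :=
    fun d => ⟨fun h => ⟨⟨d, h⟩, rfl⟩, fun ⟨e, he⟩ => he ▸ e.2⟩
  refine ⟨⟨{d // p d}, inferInstance, φ.subtypePerm hφ, ε.subtypePerm hε, fun d => lab d.1,
    fun d => ρ d.1, l, fun d => Subtype.ext (εε d.1 d.2), fun d => lab_ε d.1 d.2, ?_, ?_, ?_,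
    fun d hd => inL d.1 d.2 (fun h => hd ((hmem d).2 h)),
    fun d hd => inNx d.1 d.2 (fun h => hd ((hmem d).2 h)), ?_⟩, Subtype.val, ?_,
    Subtype.val_injective, hr, fun _ => rfl, fun _ => rfl, hl, fun _ => rfl, fun _ => rfl⟩
  · exact List.Nodup.of_map Subtype.val (hl ▸ nodup)
  · rw [← out_lab, ← hl, List.map_map]; rfl
  · apply List.map_injective_iff.2 Subtype.val_injective
    rw [List.map_rotate, hl, ← out_φ, ← hl, List.map_map, List.map_map]; rfl
  · intro H _ lam h h1 h2
    obtain ⟨f, hf⟩ := sc H (fun d => if hd : p d then lam ⟨d, hd⟩ else 1)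
      (fun d => if hd : p d then h ⟨d, hd⟩ else 1) (by
        intro d hd
        simp only [dif_pos hd, dif_pos ((hε d).2 hd)]
        exact h1 ⟨d, hd⟩ trivial) (by
        intro d hd ho
        simp only [dif_pos hd, dif_pos ((hφ d).2 hd)]
        exact h2 ⟨d, hd⟩ trivial (fun h => ho ((hmem _).1 h)))
    refine ⟨fun d => f d.1, fun d _ => ?_⟩
    have := hf d.1 d.2
    simp only [dif_pos d.2] at this
    exact this
  · exact Finite.card_subtype_lt hx

end VK

section skip
variable {D : Type} [DecidableEq D]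

/-- remove `a` from its cycle -/
def skip (π : Perm D) (a : D) : Perm D := π * swap a (π⁻¹ a)

theorem skip_self (π : Perm D) (a : D) : skip π a a = a := by simp [skip]

theorem skip_of_eq (π : Perm D) {a d : D} (h : π d = a) : skip π a d = π a ∨ d = a := by
  by_cases hd : d = a
  · exact Or.inr hd
  · left
    have : π⁻¹ a = d := by rw [← h]; simp
    simp [skip, this]

theorem skip_of_ne (π : Perm D) {a d : D} (hd : d ≠ a) (h : π d ≠ a) : skip π a d = π d := by
  have : d ≠ π⁻¹ a := by rintro rfl; simp at h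
  rw [skip, Perm.mul_apply, swap_apply_of_ne_of_ne hd this]

theorem skip_apply (π : Perm D) {a d : D} (hd : d ≠ a) :
    skip π a d = if π d = a then π a else π d := by
  split_ifs with h
  · exact (skip_of_eq π h).resolve_right hd
  · exact skip_of_ne π hd h

theorem skip_inv {H : Type*} (π : Perm D) (a : D) (F : D → H) (h : F (π a) = F a) (d : D) :
    F (skip π a d) = F (π d) := by
  by_cases hd : d = a
  · rw [hd, skip_self, h]
  · rw [skip_apply π hd]
    split_ifs with h'
    · rw [h, h']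
    · rfl

end skip

end Vale.Agent.P186
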