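import Vale.Agent.P186.VK

set_option linter.unusedSimpArgs false

namespace Vale.Agent.P186
open Equiv

namespace VK
variable {A W : Type} {T : TG A W} {w : List A}

/-- fold two consecutive darts with inverse labels -/
theorem fold (M : VK T w) (x y : M.D) (hxy : M.φ x = y) (hlab : M.lab y = T.bar (M.lab x))
    (l : List M.D) (hl : M.out = x :: y :: l ∨ (x ∉ M.out ∧ l = M.out)) :
    ∃ (M' : VK T (l.map M.lab)) (ι : M'.D → M.D), Nat.card M'.D < Nat.card M.D ∧
      Function.Injective ι ∧ (∀ d, (d ≠ x ∧ d ≠ y) ↔ ∃ e, ι e = d) ∧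
      (∀ d, M'.lab d = M.lab (ι d)) ∧ (∀ d, M'.ρ d = M.ρ (ι d)) ∧ M'.out.map ι = l ∧
      ∀ (H : Type) (F : M.D → H), F (M.φ y) = F x → F (M.ε y) = F x → F (M.ε x) = F y →
        ∀ d, F (ι (M'.φ d)) = F (M.φ (ι d)) ∧ F (ι (M'.ε d)) = F (M.ε (ι d)) := by
  classical
  have hne : x ≠ y := by
    rintro rfl
    exact T.bar_ne _ hlab.symm
  let φ1 : Perm M.D := skip (skip M.φ y) x
  let π : Perm M.D := M.ε * swap x y
  let ε1 : Perm M.D := skip (skip π x) y
  have fix2 : ∀ (τ : Perm M.D) (a b : M.D), a ≠ b →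
      ∀ d, (skip (skip τ a) b d ≠ a ∧ skip (skip τ a) b d ≠ b) ↔ (d ≠ a ∧ d ≠ b) := by
    intro τ a b hab d
    have hb : skip (skip τ a) b b = b := skip_self _ _
    have ha : skip (skip τ a) b a = a := by
      rw [skip_of_ne _ hab] <;> rw [skip_self]
      exact hab
    have e1 : skip (skip τ a) b d = a ↔ d = a :=
      (skip (skip τ a) b).injective.eq_iff' ha
    have e2 : skip (skip τ a) b d = b ↔ d = b :=
      (skip (skip τ a) b).injective.eq_iff' hb
    simp only [ne_eq, e1, e2]
  have hφ1 : ∀ d, d ≠ x → d ≠ y → φ1 d = if M.φ d = x then M.φ y else M.φ d := by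
    intro d dx dy
    have a1 : skip M.φ y d = M.φ d := skip_of_ne _ dy (by rw [← hxy]; simpa using dx)
    have a2 : skip M.φ y x = M.φ y := by rw [skip_apply _ hne, if_pos hxy]
    show skip (skip M.φ y) x d = _
    rw [skip_apply _ dx, a1, a2]
  have hε1 : ∀ d, d ≠ x → d ≠ y →
      ε1 d = if M.ε d = x then M.ε y else if M.ε d = y then M.ε x else M.ε d := by
    intro d dx dy
    have b1 : π d = M.ε d := by simp [π, swap_apply_of_ne_of_ne dx dy]
    have b2 : π x = M.ε y := by simp [π]
    have b3 : π y = M.ε x := by simp [π]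
    have b4 : skip π x y = M.ε x := by
      rw [skip_of_ne _ hne.symm, b3]
      rw [b3]; exact M.ε_ne x
    show skip (skip π x) y d = _
    rw [skip_apply _ dy, skip_apply _ dx, b1, b2, b4]
    by_cases c1 : M.ε d = x
    · simp [c1, M.ε_ne y]
    · simp [c1]
  have εeq : ∀ a b, M.ε a = b ↔ a = M.ε b := by
    intro a b
    constructor
    · rintro rfl; rw [M.εε]
    · rintro rfl; rw [M.εε]
  have hsub : ∀ d ∈ l, d ∈ M.out := by
    rcases hl with hl | hl
    · intro d hd; rw [hl]; simp [hd]
    · intro d hd; rw [← hl.2]; exact hd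
  have hsub' : ∀ d, d ≠ x → d ≠ y → d ∉ l → d ∉ M.out := by
    rcases hl with hl | hl
    · intro d a b c; rw [hl]; simp [a, b, c]
    · intro d _ _ c; rw [← hl.2]; exact c
  have hyo : y ∈ M.out ↔ x ∈ M.out := by rw [← hxy, M.φ_mem]
  have hnd := M.nodup
  suffices hs : ∃ (M' : VK T (l.map M.lab)) (ι : M'.D → M.D), Nat.card M'.D < Nat.card M.D ∧
      Function.Injective ι ∧ (∀ d, (d ≠ x ∧ d ≠ y) ↔ ∃ e, ι e = d) ∧
      (∀ d, M'.lab d = M.lab (ι d)) ∧ (∀ d, M'.ρ d = M.ρ (ι d)) ∧ M'.out.map ι = l ∧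
      (∀ d, ι (M'.φ d) = φ1 (ι d)) ∧ ∀ d, ι (M'.ε d) = ε1 (ι d) by
    obtain ⟨M', ι, k1, k2, k3, k4, k5, k6, k7, k8⟩ := hs
    refine ⟨M', ι, k1, k2, k3, k4, k5, k6, fun H F h1 h2 h3 d => ?_⟩
    have hd := (k3 (ι d)).2 ⟨d, rfl⟩
    rw [k7, k8, hφ1 _ hd.1 hd.2, hε1 _ hd.1 hd.2]
    constructor
    · split_ifs with c1
      · rw [h1, c1]
      · rfl
    · split_ifs with c1 c2
      · rw [h2, c1]
      · rw [h3, c2]
      · rfl
  refine restrict (fun d => d ≠ x ∧ d ≠ y) φ1 ε1 M.lab M.ρ l
    (fun d => by have := fix2 M.φ y x hne.symm d; tauto) (fix2 π x y hne) ?_ ?_ ?_ ?_ rfl ?_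
    (fun d hd ho => M.inL d (hsub' d hd.1 hd.2 ho)) ?_ ?_ x (by simp)
  · rcases hl with hl | hl
    · rw [hl] at hnd
      simp only [List.nodup_cons, List.mem_cons, not_or] at hnd
      intro d hd
      exact ⟨fun h => hnd.1.2 (h ▸ hd), fun h => hnd.2.1 (h ▸ hd)⟩
    · intro d hd
      rw [hl.2] at hd
      exact ⟨fun h => hl.1 (h ▸ hd), fun h => hl.1 (hyo.1 (h ▸ hd))⟩
  · rintro d ⟨dx, dy⟩
    have hp := (fix2 π x y hne d).2 ⟨dx, dy⟩
    rw [hε1 (ε1 d) hp.1 hp.2]
    rw [hε1 d dx dy]
    by_cases c1 : M.ε d = x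
    · simp [c1, M.εε, hne.symm, (εeq _ _).1 c1]
    by_cases c2 : M.ε d = y
    · simp [c1, c2, M.εε, hne.symm, (εeq _ _).1 c2]
    · simp [c1, c2, M.εε, dx, dy]
  · rintro d ⟨dx, dy⟩
    rw [hε1 d dx dy]
    have := M.lab_ε d
    split_ifs with c1 c2
    · rw [M.lab_ε, hlab, T.bar_bar, ← this, c1]
    · rw [M.lab_ε, ← hlab, ← this, c2]
    · exact this
  · rcases hl with hl | hl
    · rw [hl] at hnd; exact hnd.of_cons.of_cons
    · rw [hl.2]; exact hnd
  · rcases hl with hl | hl
    · have h0 := M.out_φ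
      rw [hl] at h0 hnd
      simp only [List.nodup_cons, List.mem_cons, not_or] at hnd
      have e : l.map φ1 = (l.map M.φ).map (fun e => if e = x then M.φ y else e) := by
        rw [List.map_map]
        apply List.map_congr_left
        intro d hd
        exact hφ1 d (fun h => hnd.1.2 (h ▸ hd)) (fun h => hnd.2.1 (h ▸ hd))
      rw [e]
      cases l with
      | nil => simp
      | cons z l' =>
        simp only [List.map_cons, List.rotate_cons_succ, List.rotate_zero, List.cons_append,
          List.cons.injEq] at h0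
        rw [List.map_cons, h0.2.2, h0.2.1]
        simp only [List.rotate_cons_succ, List.rotate_zero, List.map_append, List.map_cons,
          List.map_nil, if_true]
        congr 1
        conv_rhs => rw [← List.map_id l']
        apply List.map_congr_left
        intro d hd
        have : d ≠ x := fun h => hnd.1.2 (by simp [← h, hd])
        simp [this]
    · rw [hl.2, ← M.out_φ]
      apply List.map_congr_left
      intro d hd
      have : M.φ d ≠ x := fun h => hl.1 (h ▸ (M.φ_mem d).2 hd)
      rw [hφ1 d (fun h => hl.1 (h ▸ hd)) (fun h => hl.1 (hyo.1 (h ▸ hd))), if_neg this]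
  · rintro d ⟨dx, dy⟩ ho
    have ho' := hsub' d dx dy ho
    rw [hφ1 d dx dy, ← M.inNx d ho']
    split_ifs with c
    · have hx : x ∉ M.out := by rw [← c, M.φ_mem]; exact ho'
      rw [M.inNx y (fun h => hx (hyo.1 h)), hlab, ← hxy, M.inNx x hx, T.nx_nx _ _ (M.inL x hx), c]
    · rfl
  · intro H _ lam h h1 h2
    let c : H := if M.ε x = y then 1 else (lam (M.ε x))⁻¹
    have hφy : M.φ y ≠ y := by
      intro e
      exact hne (M.φ.injective (hxy.trans e.symm))
    obtain ⟨f, hf⟩ := M.sc H (fun d => if d = x then c else if d = y then c⁻¹ else lam d)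
      (fun d => if d = x then h (M.φ y) else if d = y then h (M.φ y) * c else h d)
      (by
        intro d _
        by_cases e : M.ε x = y
        · have e' : M.ε y = x := by rw [← e, M.εε]
          by_cases dx : d = x
          · subst dx; simp [e, hne.symm]
          by_cases dy : d = y
          · subst dy; simp [e', hne.symm]
          have c1 : M.ε d ≠ x := by rw [ne_eq, εeq, e]; exact dy
          have c2 : M.ε d ≠ y := by rw [ne_eq, εeq, e']; exact dx
          have := h1 d ⟨dx, dy⟩
          rw [hε1 d dx dy] at this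
          simpa [c1, c2, dx, dy] using this
        · have e' : M.ε y ≠ x := fun h => e (by rw [← h, M.εε])
          have hc : c = (lam (M.ε x))⁻¹ := if_neg e
          have k : lam (M.ε y) = c := by
            have := h1 (M.ε x) ⟨M.ε_ne x, e⟩
            rw [hε1 _ (M.ε_ne x) e] at this
            simpa [M.εε, hc] using this
          by_cases dx : d = x
          · subst dx; simp [e, M.ε_ne, hc]
          by_cases dy : d = y
          · subst dy; simp [e', M.ε_ne, hne.symm, k]
          by_cases c1 : M.ε d = x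
          · simp [c1, dx, dy, hc, (εeq _ _).1 c1, M.εε, M.ε_ne, e]
          by_cases c2 : M.ε d = y
          · simp [c1, c2, dx, dy, (εeq _ _).1 c2, M.εε, M.ε_ne, e', hne.symm, k]
          have := h1 d ⟨dx, dy⟩
          rw [hε1 d dx dy] at this
          simpa [c1, c2, dx, dy] using this)
      (by
        intro d _ hd
        by_cases dx : d = x
        · subst dx; simp [hxy, hne.symm]
        by_cases dy : d = y
        · subst dy
          by_cases c1 : M.φ d = x
          · simp [c1, hne.symm]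
          · simp [c1, hφy, hne.symm]
        have c2 : M.φ d ≠ y := by rw [← hxy]; simpa using dx
        have := h2 d ⟨dx, dy⟩ (fun h => hd (hsub d h))
        rw [hφ1 d dx dy] at this
        by_cases c1 : M.φ d = x
        · simpa [c1, dx, dy] using this
        · simpa [c1, c2, dx, dy] using this)
    have fx := hf x trivial
    have fy := hf y trivial
    simp only [if_true, hne.symm, if_false, hxy] at fx fy
    refine ⟨f, fun d hd => ?_⟩
    have hfd := hf d trivial
    simp only [hd.1, hd.2, if_false] at hfd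
    rw [hφ1 d hd.1 hd.2, hε1 d hd.1 hd.2]
    constructor
    · split_ifs with c1
      · rw [← hfd.1, c1, fy.1, fx.1]; simp
      · exact hfd.1
    · split_ifs with c1 c2
      · rw [← hfd.2, c1, fy.2, fx.1]; simp
      · rw [← hfd.2, c2, fx.2, fx.1]
      · exact hfd.2

end VK
end Vale.Agent.P186
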