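import Vale.Agent.P186.VK

set_option linter.unusedSimpArgs false

namespace Vale.Agent.P186
open Equiv

namespace VK
variable {A W : Type} {T : TG A W} {w : List A}

theorem rot {u v : List A} (M : VK T (u ++ v)) : Nonempty (VK T (v ++ u)) := by
  refine ⟨⟨M.D, M.fin, M.φ, M.ε, M.lab, M.ρ, M.out.rotate u.length, M.εε, M.lab_ε,
    List.nodup_rotate.2 M.nodup, ?_, ?_, fun d hd => M.inL d (fun h => hd (List.mem_rotate.2 h)),
    fun d hd => M.inNx d (fun h => hd (List.mem_rotate.2 h)), ?_⟩⟩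
  · rw [List.map_rotate, M.out_lab, List.rotate_append_length_eq]
  · rw [List.map_rotate, M.out_φ, List.rotate_rotate, List.rotate_rotate, add_comm]
  · intro H _ lam h h1 h2
    exact M.sc H lam h h1 (fun d _ hd => h2 d trivial (fun h => hd (List.mem_rotate.1 h)))

theorem nil : Nonempty (VK T []) :=
  ⟨⟨Empty, inferInstance, 1, 1, Empty.elim, Empty.elim, [], fun d => d.elim, fun d => d.elim,
    List.nodup_nil, rfl, rfl, fun d => d.elim, fun d => d.elim,
    fun _ _ _ _ _ _ => ⟨Empty.elim, fun d => d.elim⟩⟩⟩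

theorem edge (w0 : W) (a : A) : Nonempty (VK T [a, T.bar a]) := by
  refine ⟨⟨Bool, inferInstance, swap true false, swap true false,
    fun b => if b then a else T.bar a, fun _ => w0, [true, false], by decide, ?_, by decide, rfl,
    by decide, ?_, ?_, ?_⟩⟩
  · rintro (_ | _) <;> simp [T.bar_bar]
  · rintro (_ | _) <;> simp
  · rintro (_ | _) <;> simp
  · intro H _ lam h h1 _
    refine ⟨fun b => if b then 1 else lam true, ?_⟩
    have : lam false = (lam true)⁻¹ := by simpa using h1 true trivial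
    rintro (_ | _) _ <;> simp [this]

theorem tri (x : W) (a b c : A) (ha : T.L x a) (hb : T.L (T.nx x a) b)
    (hc : T.L (T.nx (T.nx x a) b) c) (hx : T.nx (T.nx (T.nx x a) b) c = x) :
    Nonempty (VK T [a, b, c]) := by
  let φ : Perm (Fin 6) := ⟨![1, 2, 0, 5, 3, 4], ![2, 0, 1, 4, 5, 3], by decide, by decide⟩
  let ε : Perm (Fin 6) := ⟨![3, 4, 5, 0, 1, 2], ![3, 4, 5, 0, 1, 2], by decide, by decide⟩
  have h1 := T.L_nx _ _ ha
  have h2 := T.L_nx _ _ hb
  have h3 := T.L_nx _ _ hc
  have k1 := T.nx_nx _ _ ha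
  have k2 := T.nx_nx _ _ hb
  have k3 := T.nx_nx _ _ hc
  rw [hx] at h3 k3
  refine ⟨⟨Fin 6, inferInstance, φ, ε, ![a, b, c, T.bar a, T.bar b, T.bar c],
    ![x, x, x, T.nx x a, T.nx (T.nx x a) b, x], [0, 1, 2], by decide, ?_, by decide, rfl,
    by decide, ?_, ?_, ?_⟩⟩
  · intro d; fin_cases d <;> simp [ε, T.bar_bar]
  · intro d; fin_cases d <;> simp [h1, h2, h3]
  · intro d; fin_cases d <;> simp [φ, k1, k2, k3]
  · intro H _ lam h e1 e2
    have a0 : lam 3 = (lam 0)⁻¹ := e1 0 trivial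
    have a1 : lam 4 = (lam 1)⁻¹ := e1 1 trivial
    have a2 : lam 5 = (lam 2)⁻¹ := e1 2 trivial
    have b0 : h 5 = h 3 * lam 3 := e2 3 trivial (by decide)
    have b1 : h 3 = h 4 * lam 4 := e2 4 trivial (by decide)
    have b2 : h 4 = h 5 * lam 5 := e2 5 trivial (by decide)
    refine ⟨![h 5, h 3, h 4, h 3, h 4, h 5], ?_⟩
    intro d _
    fin_cases d <;> simp [φ, ε]
    · rw [b0, a0]; simp
    · rw [b1, a1]; simp
    · rw [b2, a2]; simp
    · exact b0
    · exact b1
    · exact b2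

theorem wedge {w1 w2 : List A} (M1 : VK T w1) (M2 : VK T w2) : Nonempty (VK T (w1 ++ w2)) := by
  classical
  rcases List.eq_nil_or_concat M1.out with h1 | ⟨l1, a1, h1⟩
  · have : w1 = [] := by rw [← M1.out_lab, h1]; rfl
    subst this; exact ⟨M2⟩
  rcases List.eq_nil_or_concat M2.out with h2 | ⟨l2, a2, h2⟩
  · have : w2 = [] := by rw [← M2.out_lab, h2]; rfl
    subst this; rw [List.append_nil]; exact ⟨M1⟩
  rw [List.concat_eq_append] at h1 h2
  have aux : ∀ {D : Type} (φ : D → D) (l : List D) (a : D), (l ++ [a]).map φ = (l ++ [a]).rotate 1 →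
      l ++ [a] = φ a :: l.map φ := by
    intro D φ l a h
    obtain ⟨b, t, e⟩ : ∃ b t, l ++ [a] = b :: t := by
      cases l with
      | nil => exact ⟨_, _, rfl⟩
      | cons b t => exact ⟨_, _, rfl⟩
    conv_rhs at h => rw [e]
    simp only [List.map_append, List.map_cons, List.map_nil, List.rotate_cons_succ,
      List.rotate_zero] at h
    have := List.append_inj' h rfl
    rw [e, this.1]
    simpa using this.2.symm
  have e1 := aux M1.φ l1 a1 (h1 ▸ M1.out_φ)
  have e2 := aux M2.φ l2 a2 (h2 ▸ M2.out_φ)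
  have n1 := M1.nodup
  have n2 := M2.nodup
  have m1 : a1 ∈ M1.out := by simp [h1]
  have m2 : a2 ∈ M2.out := by simp [h2]
  have n1' : a1 ∉ l1 := by
    rw [h1] at n1; intro h
    exact (List.nodup_append.1 n1).2.2 a1 h a1 (by simp) rfl
  have n2' : a2 ∉ l2 := by
    rw [h2] at n2; intro h
    exact (List.nodup_append.1 n2).2.2 a2 h a2 (by simp) rfl
  let φ : Perm (M1.D ⊕ M2.D) := Perm.sumCongr M1.φ M2.φ * swap (Sum.inl a1) (Sum.inr a2)
  have f1 : ∀ d, d ≠ a1 → φ (Sum.inl d) = Sum.inl (M1.φ d) := by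
    intro d hd
    simp [φ, swap_apply_of_ne_of_ne, hd]
  have f2 : ∀ d, d ≠ a2 → φ (Sum.inr d) = Sum.inr (M2.φ d) := by
    intro d hd
    simp [φ, swap_apply_of_ne_of_ne, hd]
  have g1 : φ (Sum.inl a1) = Sum.inr (M2.φ a2) := by simp [φ]
  have g2 : φ (Sum.inr a2) = Sum.inl (M1.φ a1) := by simp [φ]
  refine ⟨⟨M1.D ⊕ M2.D, inferInstance, φ, Perm.sumCongr M1.ε M2.ε, Sum.elim M1.lab M2.lab,
    Sum.elim M1.ρ M2.ρ, M1.out.map Sum.inl ++ M2.out.map Sum.inr, ?_, ?_, ?_, ?_, ?_, ?_, ?_, ?_⟩⟩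
  · rintro (d | d) <;> simp [M1.εε, M2.εε]
  · rintro (d | d) <;> simp [M1.lab_ε, M2.lab_ε]
  · rw [List.nodup_append]
    refine ⟨n1.map Sum.inl_injective, n2.map Sum.inr_injective, ?_⟩
    simp
  · simp [← M1.out_lab, ← M2.out_lab, Function.comp_def]
  · have r1 : (l1.map Sum.inl).map φ = (l1.map M1.φ).map Sum.inl := by
      rw [List.map_map, List.map_map]
      exact List.map_congr_left fun d hd => f1 d (fun h => n1' (h ▸ hd))
    have r2 : (l2.map Sum.inr).map φ = (l2.map M2.φ).map Sum.inr := by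
      rw [List.map_map, List.map_map]
      exact List.map_congr_left fun d hd => f2 d (fun h => n2' (h ▸ hd))
    conv_rhs => rw [h1, h2, e1, e2]
    rw [h1, h2]
    simp only [List.map_append, r1, r2, List.map_cons, List.map_nil, g1, g2, List.cons_append,
      List.rotate_cons_succ, List.rotate_zero, List.append_assoc, List.nil_append]
  · rintro (d | d) hd
    · exact M1.inL d (by simpa using hd)
    · exact M2.inL d (by simpa using hd)
  · rintro (d | d) hd
    · have hd' : d ∉ M1.out := by simpa using hd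
      rw [f1 d (fun h => hd' (h ▸ m1))]
      exact M1.inNx d hd'
    · have hd' : d ∉ M2.out := by simpa using hd
      rw [f2 d (fun h => hd' (h ▸ m2))]
      exact M2.inNx d hd'
  · intro H _ lam h k1 k2
    obtain ⟨p1, hp1⟩ := M1.sc H (fun d => lam (Sum.inl d)) (fun d => h (Sum.inl d))
      (fun d _ => k1 (Sum.inl d) trivial) (fun d _ hd => by
        rw [← f1 d (fun h => hd (h ▸ m1))]
        exact k2 (Sum.inl d) trivial (by simpa using hd))
    obtain ⟨p2, hp2⟩ := M2.sc H (fun d => lam (Sum.inr d)) (fun d => h (Sum.inr d))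
      (fun d _ => k1 (Sum.inr d) trivial) (fun d _ hd => by
        rw [← f2 d (fun h => hd (h ▸ m2))]
        exact k2 (Sum.inr d) trivial (by simpa using hd))
    refine ⟨Sum.elim p1 (fun d => p1 (M1.φ a1) * (p2 (M2.φ a2))⁻¹ * p2 d), ?_⟩
    rintro (d | d) _
    · refine ⟨?_, (hp1 d trivial).2⟩
      by_cases hd : d = a1
      · subst hd
        rw [g1]
        simp [← (hp1 d trivial).1]
      · rw [f1 d hd]
        exact (hp1 d trivial).1
    · constructor
      · by_cases hd : d = a2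
        · subst hd
          rw [g2]
          simp [mul_assoc, ← (hp2 d trivial).1]
        · rw [f2 d hd]
          simp [mul_assoc, (hp2 d trivial).1]
      · simp [mul_assoc, (hp2 d trivial).2]

end VK
end Vale.Agent.P186
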