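import Vale.Agent.P186.VKOps
import Vale.Agent.P186.VKFold
import Vale.Agent.P186.VKWedge

namespace Vale.Agent.P186
open Equiv

namespace VK
variable {A W : Type} {T : TG A W} {w : List A}

/-- reduced map -/
def Reduced (M : VK T w) : Prop :=
  (∀ d, d ∉ M.out → M.ε d ∉ M.out → M.ρ (M.ε d) ≠ T.nx (M.ρ d) (M.lab d)) ∧
    ∀ d, d ∉ M.out → M.lab (M.φ d) ≠ T.bar (M.lab d)

theorem exists_reduced (M : VK T w) : ∃ M' : VK T w, M'.Reduced := by
  induction h : Nat.card M.D using Nat.strong_induction_on generalizing M with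
  | _ n ih =>
    by_cases hr : M.Reduced
    · exact ⟨M, hr⟩
    rw [Reduced, not_and_or] at hr
    rcases hr with hr | hr
    · push Not at hr
      obtain ⟨d, h1, h2, h3⟩ := hr
      obtain ⟨M', -, hM', -⟩ := M.delete d h1 h2 h3
      exact ih _ (h ▸ hM') M' rfl
    · push Not at hr
      obtain ⟨d, h1, h2⟩ := hr
      have : ∃ M' : VK T (M.out.map M.lab), Nat.card M'.D < Nat.card M.D := by
        obtain ⟨M', -, hM', -⟩ := M.fold d (M.φ d) rfl h2 M.out (Or.inr ⟨h1, rfl⟩)
        exact ⟨M', hM'⟩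
      rw [M.out_lab] at this
      obtain ⟨M', hM'⟩ := this
      exact ih _ (h ▸ hM') M' rfl

theorem del {a : A} (M : VK T (a :: T.bar a :: w)) : Nonempty (VK T w) := by
  have h := M.out_lab
  obtain ⟨x, l1, e1, hx, h⟩ := List.map_eq_cons_iff.1 h
  obtain ⟨y, l, e2, hy, h3⟩ := List.map_eq_cons_iff.1 h
  subst e2
  have h0 := M.out_φ
  rw [e1] at h0
  simp only [List.map_cons, List.rotate_cons_succ, List.rotate_zero, List.cons_append,
    List.cons.injEq] at h0
  have := (M.fold x y h0.1 (by rw [hx, hy]) l (Or.inl e1)).choose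
  rw [h3] at this
  exact ⟨this⟩

theorem rot_iff (u v : List A) : Nonempty (VK T (u ++ v)) ↔ Nonempty (VK T (v ++ u)) :=
  ⟨fun ⟨M⟩ => M.rot, fun ⟨M⟩ => M.rot⟩

theorem mid_iff (u x v : List A) :
    Nonempty (VK T (u ++ x ++ v)) ↔ Nonempty (VK T (x ++ (v ++ u))) := by
  rw [List.append_assoc, rot_iff, List.append_assoc]

theorem pair_iff (w0 : W) (u v : List A) (a : A) :
    Nonempty (VK T (u ++ [a, T.bar a] ++ v)) ↔ Nonempty (VK T (u ++ v)) := by
  rw [mid_iff, rot_iff u v]
  exact ⟨fun ⟨M⟩ => M.del, fun ⟨M⟩ => (edge w0 a).elim fun M' => M'.wedge M⟩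

theorem tri_iff (x : W) (a b c : A) (ha : T.L x a) (hb : T.L (T.nx x a) b)
    (hc : T.L (T.nx (T.nx x a) b) c) (hx : T.nx (T.nx (T.nx x a) b) c = x) (u v : List A) :
    Nonempty (VK T (u ++ [a, b, c] ++ v)) ↔ Nonempty (VK T (u ++ v)) := by
  rw [mid_iff, rot_iff u v]
  refine ⟨fun ⟨M⟩ => ?_, fun ⟨M⟩ => (tri x a b c ha hb hc hx).elim fun M' => M'.wedge M⟩
  have h1 := T.L_nx _ _ ha
  have h2 := T.L_nx _ _ hb
  have h3 := T.L_nx _ _ hc
  have k1 := T.nx_nx _ _ ha
  have k2 := T.nx_nx _ _ hb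
  have k3 := T.nx_nx _ _ hc
  rw [hx] at h3 k3
  obtain ⟨M'⟩ := tri x (T.bar c) (T.bar b) (T.bar a) h3 (by rwa [k3]) (by rwa [k3, k2])
    (by rw [k3, k2, k1])
  have e := M'.wedge M
  have e1 := (pair_iff (T := T) x [T.bar c, T.bar b] (b :: c :: (v ++ u)) (T.bar a)).1
    (by simpa [T.bar_bar] using e)
  have e2 := (pair_iff (T := T) x [T.bar c] (c :: (v ++ u)) (T.bar b)).1
    (by simpa [T.bar_bar] using e1)
  have e3 := (pair_iff (T := T) x [] (v ++ u) (T.bar c)).1 (by simpa [T.bar_bar] using e2)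
  simpa using e3

/-- the syntactic congruence of the words bounding a van Kampen map -/
def con (T : TG A W) : Con (FreeMonoid A) where
  r x y := ∀ u v : List A, Nonempty (VK T (u ++ x.toList ++ v)) ↔
    Nonempty (VK T (u ++ y.toList ++ v))
  iseqv := ⟨fun _ _ _ => Iff.rfl, fun h u v => (h u v).symm,
    fun h1 h2 u v => (h1 u v).trans (h2 u v)⟩
  mul' {a b c d} h1 h2 u v := by
    have e1 := h1 u (c.toList ++ v)
    have e2 := h2 (u ++ b.toList) v
    simp only [FreeMonoid.toList_mul, List.append_assoc] at e1 e2 ⊢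
    exact e1.trans e2

theorem exists_group (T : TG A W) (w0 : W) :
    ∃ (G : Type) (_ : Group G) (ev : A → G), (∀ a, ev (T.bar a) = (ev a)⁻¹) ∧
      (∀ g : G, ∃ w : List A, (w.map ev).prod = g) ∧
      (∀ x a b c, T.L x a → T.L (T.nx x a) b → T.L (T.nx (T.nx x a) b) c →
        T.nx (T.nx (T.nx x a) b) c = x → ev a * ev b * ev c = 1) ∧
      ∀ w : List A, (w.map ev).prod = 1 → Nonempty (VK T w) := by
  let ev : A → (con T).Quotient := fun a => (con T).mk' (FreeMonoid.of a)
  have hev : ∀ w : List A, (w.map ev).prod = (con T).mk' (FreeMonoid.ofList w) := by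
    intro w
    induction w with
    | nil => simp
    | cons a w ih => rw [List.map_cons, List.prod_cons, ih, FreeMonoid.ofList_cons, map_mul]
  have hp : ∀ a, ev a * ev (T.bar a) = 1 := by
    intro a
    have : (([a, T.bar a] : List A).map ev).prod = (([] : List A).map ev).prod := by
      rw [hev, hev]
      refine (Con.eq _).2 fun u v => ?_
      simpa using pair_iff w0 u v a
    simpa using this
  have hs : ∀ g : (con T).Quotient, ∃ w : List A, (w.map ev).prod = g := by
    intro g
    obtain ⟨x, rfl⟩ := (con T).mk'_surjective g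
    exact ⟨x.toList, by rw [hev]; rfl⟩
  have hu : ∀ g : (con T).Quotient, IsUnit g := by
    intro g
    obtain ⟨w, rfl⟩ := hs g
    induction w with
    | nil => simp
    | cons a w ih =>
      rw [List.map_cons, List.prod_cons]
      refine IsUnit.mul ⟨⟨ev a, ev (T.bar a), hp a, ?_⟩, rfl⟩ ih
      have := hp (T.bar a)
      rwa [T.bar_bar] at this
  let _ : Group (con T).Quotient := groupOfIsUnit hu
  refine ⟨(con T).Quotient, inferInstance, ev, fun a => eq_inv_of_mul_eq_one_right (hp a), hs,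
    ?_, ?_⟩
  · intro x a b c ha hb hc hx
    have : (([a, b, c] : List A).map ev).prod = (([] : List A).map ev).prod := by
      rw [hev, hev]
      refine (Con.eq _).2 fun u v => ?_
      simpa using tri_iff x a b c ha hb hc hx u v
    simpa [mul_assoc] using this
  · intro w hw
    have : (con T).mk' (FreeMonoid.ofList w) = (con T).mk' (FreeMonoid.ofList []) := by
      rw [← hev, ← hev]; exact hw
    have := ((Con.eq _).1 this [] []).2 (by simpa using nil)
    simpa using this

end VK
end Vale.Agent.P186
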