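import Vale.Agent.P186.VK

namespace Vale.Agent.P186
open Equiv

namespace VK
variable {A W : Type} {T : TG A W} {w : List A}

theorem ext_two {D H : Type} (π : D → D) {x y : D} (hxy : x ≠ y) (h0 : D → H) :
    ∃ h : D → H, (∀ d, d ≠ x → d ≠ y → h d = h0 d) ∧ h (π x) = h x ∧ h (π y) = h y := by
  classical
  by_cases h1 : π x = x <;> by_cases h2 : π x = y <;> by_cases h3 : π y = x <;>
    by_cases h4 : π y = y
  all_goals first
    | (exfalso; apply hxy; simp_all; done)
    | skip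
  · exact ⟨fun d => if d = y then h0 x else h0 d, by
      intro d _ b; simp [b], by simp [h1], by simp [h3, hxy]⟩
  · exact ⟨h0, fun _ _ _ => rfl, by rw [h1], by rw [h4]⟩
  · exact ⟨fun d => if d = y then h0 (π y) else h0 d, by
      intro d _ b; simp [b], by simp [h1], by simp [h4]⟩
  · exact ⟨fun d => if d = y then h0 x else h0 d, by
      intro d _ b; simp [b], by simp [h2, hxy], by simp [h3, hxy]⟩
  · exact ⟨fun d => if d = x then h0 y else h0 d, by
      intro d a _; simp [a], by simp [h2, hxy.symm], by simp [h4]⟩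
  · exact ⟨fun d => if d = x ∨ d = y then h0 (π y) else h0 d, by
      intro d a b; simp [a, b], by simp [h2], by simp [h3, h4]⟩
  · exact ⟨fun d => if d = x ∨ d = y then h0 (π x) else h0 d, by
      intro d a b; simp [a, b], by simp [h1, h2], by simp [h3]⟩
  · exact ⟨fun d => if d = x then h0 (π x) else h0 d, by
      intro d a _; simp [a], by simp [h1], by simp [h4]⟩
  · exact ⟨fun d => if d = x then h0 (π x) else if d = y then h0 (π y) else h0 d, by
      intro d a b; simp [a, b], by simp [h1, h2], by simp [h3, h4, hxy.symm]⟩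

/-- delete an interior edge whose two sides lift to the same edge of the graph -/
theorem delete (M : VK T w) (x : M.D) (hx : x ∉ M.out) (hy : M.ε x ∉ M.out)
    (ho : M.ρ (M.ε x) = T.nx (M.ρ x) (M.lab x)) :
    ∃ (M' : VK T w) (ι : M'.D → M.D), Nat.card M'.D < Nat.card M.D ∧ Function.Injective ι ∧
      (∀ d, (d ≠ x ∧ d ≠ M.ε x) ↔ ∃ e, ι e = d) ∧ (∀ d, M'.lab d = M.lab (ι d)) ∧
      (∀ d, M'.ρ d = M.ρ (ι d)) ∧ M'.out.map ι = M.out ∧
      ∀ (H : Type) (F : M.D → H), (∀ d, F (M.φ d) = F (M.ε d)) →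
        ∀ d, F (ι (M'.φ d)) = F (M.φ (ι d)) ∧ F (ι (M'.ε d)) = F (M.ε (ι d)) := by
  classical
  set y := M.ε x with hydef
  have hxy : x ≠ y := (M.ε_ne x).symm
  have hεy : M.ε y = x := M.εε x
  let σ : Perm M.D := M.φ * M.ε
  let σ1 : Perm M.D := skip (skip σ x) y
  have hσ1y : σ1 y = y := skip_self _ _
  have hσ1x : σ1 x = x := by
    show skip (skip σ x) y x = x
    rw [skip_of_ne _ hxy] <;> rw [skip_self]
    exact hxy
  have key : ∀ {H : Type} (F : M.D → H), F (M.φ y) = F x → F (M.φ x) = F y →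
      ∀ d, F (σ1 (M.ε d)) = F (M.φ d) := by
    intro H F h1 h2 d
    have a1 : F (σ x) = F x := h1
    have a2 : F (σ y) = F y := by
      show F (M.φ (M.ε y)) = F y
      rw [hεy, h2]
    have a3 : F (skip σ x y) = F y := by rw [skip_inv σ x F a1, a2]
    show F (skip (skip σ x) y (M.ε d)) = _
    rw [skip_inv _ y F a3, skip_inv σ x F a1]
    show F (M.φ (M.ε (M.ε d))) = _
    rw [M.εε]
  have pε : ∀ d, (M.ε d ≠ x ∧ M.ε d ≠ y) ↔ (d ≠ x ∧ d ≠ y) := by
    intro d
    have e1 : M.ε d = x ↔ d = y := by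
      rw [← hεy]; exact M.ε.injective.eq_iff
    have e2 : M.ε d = y ↔ d = x := M.ε.injective.eq_iff
    simp only [ne_eq, e1, e2, and_comm]
  have pσ : ∀ d, (σ1 d ≠ x ∧ σ1 d ≠ y) ↔ (d ≠ x ∧ d ≠ y) := by
    intro d
    have e1 : σ1 d = x ↔ d = x := by
      conv_lhs => rw [← hσ1x]
      exact σ1.injective.eq_iff
    have e2 : σ1 d = y ↔ d = y := by
      conv_lhs => rw [← hσ1y]
      exact σ1.injective.eq_iff
    simp only [ne_eq, e1, e2]
  have hout : ∀ d ∈ M.out, d ≠ x ∧ d ≠ y := fun d hd =>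
    ⟨fun h => hx (h ▸ hd), fun h => hy (h ▸ hd)⟩
  suffices hs : ∃ (M' : VK T w) (ι : M'.D → M.D), Nat.card M'.D < Nat.card M.D ∧
      Function.Injective ι ∧ (∀ d, (d ≠ x ∧ d ≠ y) ↔ ∃ e, ι e = d) ∧
      (∀ d, M'.lab d = M.lab (ι d)) ∧ (∀ d, M'.ρ d = M.ρ (ι d)) ∧ M'.out.map ι = M.out ∧
      (∀ d, ι (M'.φ d) = (σ1 * M.ε) (ι d)) ∧ ∀ d, ι (M'.ε d) = M.ε (ι d) by
    obtain ⟨M', ι, k1, k2, k3, k4, k5, k6, k7, k8⟩ := hs
    refine ⟨M', ι, k1, k2, k3, k4, k5, k6, fun H F hF d => ⟨?_, by rw [k8]⟩⟩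
    rw [k7]
    exact key F (by rw [hF, hεy]) (hF x) (ι d)
  refine restrict (fun d => d ≠ x ∧ d ≠ y) (σ1 * M.ε) M.ε M.lab M.ρ M.out
    (fun d => (pσ (M.ε d)).trans (pε d)) pε hout (fun d _ => M.εε d) (fun d _ => M.lab_ε d)
    M.nodup M.out_lab ?_ (fun d _ hd => M.inL d hd) ?_ ?_ x (by simp)
  · rw [← M.out_φ]
    apply List.map_congr_left
    intro d hd
    have hd' := (M.φ_mem d).2 hd
    have := key (fun e => if e ∈ M.out then some e else none)
      (by simp [M.φ_mem, hx, hy]) (by simp [M.φ_mem, hx, hy]) d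
    simp only [hd', if_true] at this
    show σ1 (M.ε d) = M.φ d
    split_ifs at this
    exact Option.some_injective _ this
  · intro d _ hd
    show M.ρ (σ1 (M.ε d)) = _
    rw [key M.ρ _ _ d, M.inNx d hd]
    · rw [M.inNx y hy, ho, hydef, M.lab_ε, T.nx_nx _ _ (M.inL x hx)]
    · rw [M.inNx x hx, ho]
  · intro H _ lam h h1 h2
    obtain ⟨h', e0, e1, e2⟩ := ext_two σ hxy h
    have e1' : h' (M.φ y) = h' x := e1
    have e2' : h' (M.φ x) = h' y := by
      have : σ y = M.φ x := by show M.φ (M.ε y) = _; rw [hεy]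
      rwa [this] at e2
    obtain ⟨f, hf⟩ := M.sc H
      (fun d => if d = x then (h' x)⁻¹ * h' y else if d = y then (h' y)⁻¹ * h' x else lam d) h'
      (by
        intro d _
        by_cases dx : d = x
        · subst dx; simp [← hydef, hxy.symm]
        by_cases dy : d = y
        · subst dy; simp [hεy, hxy.symm]
        have := (pε d).2 ⟨dx, dy⟩
        simp only [this.1, this.2, dx, dy, if_false]
        exact h1 d ⟨dx, dy⟩)
      (by
        intro d _ hd
        by_cases dx : d = x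
        · subst dx; simp [e2']
        by_cases dy : d = y
        · subst dy; simp [e1', hxy.symm]
        simp only [dx, dy, if_false]
        have hp := (pσ (M.ε d)).2 ((pε d).2 ⟨dx, dy⟩)
        rw [← key h' e1' e2' d, e0 _ hp.1 hp.2, e0 d dx dy]
        exact h2 d ⟨dx, dy⟩ hd)
    refine ⟨f, fun d hd => ?_⟩
    have hfd := hf d trivial
    simp only [hd.1, hd.2, if_false] at hfd
    refine ⟨?_, hfd.2⟩
    show f (σ1 (M.ε d)) = _
    rw [key f _ _ d, hfd.1]
    · rw [(hf y trivial).1, ← (hf y trivial).2, hεy]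
    · rw [(hf x trivial).1, ← (hf x trivial).2]

end VK
end Vale.Agent.P186
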